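import Vale.Agent.P075.AE

open MeasureTheory Vale.Agent.P075

/-- Q2: the dyadic triangular Hilbert form is bounded on `L³ × L³ × L³`, uniformly in the finite
set of scales and in the coefficients. -/
theorem Vale.Agent.Results.P075.DyadicQ2.result :
    ∃ C : ℝ, ∀ (S : Finset ℤ) (ε : ℤ → ℝ) (F₀ F₁ F₂ : ℝ × ℝ → ℝ),
      (∀ k, |ε k| ≤ 1) →
      AEMeasurable F₀ quad → AEMeasurable F₁ quad → AEMeasurable F₂ quad →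
      (∃ M : ℝ, ∀ y, |F₀ y| ≤ M) → (∃ M : ℝ, ∀ y, |F₁ y| ≤ M) → (∃ M : ℝ, ∀ y, |F₂ y| ≤ M) →
      HasCompactSupport F₀ → HasCompactSupport F₁ → HasCompactSupport F₂ →
      (∀ k : ℤ, Summable fun n : XorTriple => formL F₀ F₁ F₂ k n.1) ∧
      |formD S ε F₀ F₁ F₂| ≤ C * ((eLpNorm F₀ 3 quad).toReal * (eLpNorm F₁ 3 quad).toReal *
        (eLpNorm F₂ 3 quad).toReal) :=
  ⟨129, fun S ε _ _ _ hε m₀ m₁ m₂ b₀ b₁ b₂ c₀ c₁ c₂ =>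
    have h := main_ae (memLp_of_bdd' m₀ b₀ c₀) (memLp_of_bdd' m₁ b₁ c₁) (memLp_of_bdd' m₂ b₂ c₂)
    ⟨h.2.2.1, h.2.2.2 S ε hε⟩⟩
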