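import Vale.Agent.P075.AE

open MeasureTheory Vale.Agent.P075

/-- Strong form of Q2: for all `L³` inputs, the local forms `L_I` are absolutely
summable over all scales and all admissible triples, with the `L³ × L³ × L³` bound; in particular
the form of Q2 is bounded. -/
theorem Vale.Agent.Results.P075.DyadicStrong.result :
    ∃ C : ℝ, ∀ (F₀ F₁ F₂ : ℝ × ℝ → ℝ),
      MemLp F₀ 3 quad → MemLp F₁ 3 quad → MemLp F₂ 3 quad →
      Summable (fun p : ℤ × XorTriple => |formL F₀ F₁ F₂ p.1 p.2.1|) ∧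
      ∑' p : ℤ × XorTriple, |formL F₀ F₁ F₂ p.1 p.2.1| ≤
        C * ((eLpNorm F₀ 3 quad).toReal * (eLpNorm F₁ 3 quad).toReal *
          (eLpNorm F₂ 3 quad).toReal) ∧
      ∀ (S : Finset ℤ) (ε : ℤ → ℝ), (∀ k, |ε k| ≤ 1) →
        |formD S ε F₀ F₁ F₂| ≤ C * ((eLpNorm F₀ 3 quad).toReal * (eLpNorm F₁ 3 quad).toReal *
          (eLpNorm F₂ 3 quad).toReal) :=
  ⟨129, fun _ _ _ h₀ h₁ h₂ =>
    have h := main_ae h₀ h₁ h₂
    ⟨h.1, h.2.1, h.2.2.2⟩⟩
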